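import Mathlib

/-!
# P091 / T / H827 / Pet1: the kernel of the Haar shift, averaged over translations

`hw` = Haar function `+ + - -` of the unit interval, `sw` = the pattern `+ - - +`.
`SH j G z` = the standard dyadic shift at level `j`.
-/

namespace Vale.Agent.P091.T.H827

open MeasureTheory Set intervalIntegral

/-- the Haar function of `[0,1)` -/
noncomputable def hw (z : ℝ) : ℝ :=
  if 0 ≤ z ∧ z < 1 / 2 then 1 else if 1 / 2 ≤ z ∧ z < 1 then -1 else 0

/-- the pattern `+ - - +` on the quarters of `[0,1)` -/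
noncomputable def sw (z : ℝ) : ℝ :=
  if 0 ≤ z ∧ z < 1 / 4 then 1 else if 1 / 4 ≤ z ∧ z < 3 / 4 then -1 else
    if 3 / 4 ≤ z ∧ z < 1 then 1 else 0

/-- the primitive of `hw` -/
noncomputable def tent (z : ℝ) : ℝ := max 0 (min z (1 - z))

/-- the averaged kernel -/
noncomputable def kap (u : ℝ) : ℝ :=
  2 * tent (1 / 4 - u) - 2 * tent (3 / 4 - u) + tent (1 - u) - tent (-u)

lemma abs_hw_le (z : ℝ) : |hw z| ≤ 1 := by
  unfold hw; split_ifs <;> simp

lemma abs_sw_le (z : ℝ) : |sw z| ≤ 1 := by
  unfold sw; split_ifs <;> simp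

lemma measurable_hw : Measurable hw := by
  unfold hw
  exact Measurable.ite measurableSet_Ico measurable_const
    (Measurable.ite measurableSet_Ico measurable_const measurable_const)

lemma measurable_sw : Measurable sw := by
  unfold sw
  exact Measurable.ite measurableSet_Ico measurable_const
    (Measurable.ite measurableSet_Ico measurable_const
      (Measurable.ite measurableSet_Ico measurable_const measurable_const))

lemma continuous_tent : Continuous tent := by
  unfold tent; fun_prop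

lemma continuous_kap : Continuous kap := by
  unfold kap
  have h := continuous_tent
  fun_prop

lemma tent_nonneg (z : ℝ) : 0 ≤ tent z := le_max_left _ _

lemma tent_symm (z : ℝ) : tent (1 - z) = tent z := by
  unfold tent; rw [min_comm]; congr 2; ring

lemma tent_of_nonpos {z : ℝ} (h : z ≤ 0) : tent z = 0 := by
  unfold tent; exact max_eq_left ((min_le_left _ _).trans h)

lemma tent_of_one_le {z : ℝ} (h : 1 ≤ z) : tent z = 0 := by
  unfold tent; exact max_eq_left ((min_le_right _ _).trans (by linarith))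

lemma tent_of_le_half {z : ℝ} (h0 : 0 ≤ z) (h : z ≤ 1 / 2) : tent z = z := by
  unfold tent; rw [min_eq_left (by linarith), max_eq_right h0]

lemma tent_of_half_le {z : ℝ} (h0 : 1 / 2 ≤ z) (h : z ≤ 1) : tent z = 1 - z := by
  unfold tent; rw [min_eq_right (by linarith), max_eq_right (by linarith)]

lemma tent_le_half (z : ℝ) : tent z ≤ 1 / 2 := by
  unfold tent
  refine max_le (by norm_num) ?_
  rcases le_total z (1 / 2) with h | h
  · exact (min_le_left _ _).trans h
  · exact (min_le_right _ _).trans (by linarith)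

/-- `tent` is `1`-Lipschitz -/
lemma abs_tent_sub_le (z w : ℝ) : |tent z - tent w| ≤ |z - w| := by
  unfold tent
  rcases abs_cases (z - w) with h | h <;> rw [abs_le] <;>
    simp only [max_def, min_def] <;> constructor <;> split_ifs <;> linarith

lemma kap_odd (u : ℝ) : kap (-u) = - kap u := by
  unfold kap
  rw [← tent_symm (1 / 4 - -u), ← tent_symm (3 / 4 - -u), ← tent_symm (1 - -u),
    ← tent_symm (- -u)]
  have e1 : (1 : ℝ) - (1 / 4 - -u) = 3 / 4 - u := by ring
  have e2 : (1 : ℝ) - (3 / 4 - -u) = 1 / 4 - u := by ring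
  have e3 : (1 : ℝ) - (1 - -u) = -u := by ring
  have e4 : (1 : ℝ) - - -u = 1 - u := by ring
  rw [e1, e2, e3, e4]; ring

lemma kap_of_one_le {u : ℝ} (h : 1 ≤ u) : kap u = 0 := by
  unfold kap
  rw [tent_of_nonpos (by linarith), tent_of_nonpos (by linarith), tent_of_nonpos (by linarith),
    tent_of_nonpos (by linarith)]
  ring

lemma kap_of_le_neg_one {u : ℝ} (h : u ≤ -1) : kap u = 0 := by
  have := kap_of_one_le (u := -u) (by linarith)
  rw [kap_odd] at this; linarith

lemma kap_of_one_le_abs {u : ℝ} (h : 1 ≤ |u|) : kap u = 0 := by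
  rcases le_abs.1 h with h | h
  · exact kap_of_one_le h
  · exact kap_of_le_neg_one (by linarith)

lemma kap1 {u : ℝ} (h0 : 0 ≤ u) (h1 : u ≤ 1 / 4) : kap u = -3 * u := by
  unfold kap
  rw [tent_of_le_half (z := 1 / 4 - u) (by linarith) (by linarith),
    tent_of_half_le (z := 3 / 4 - u) (by linarith) (by linarith),
    tent_of_half_le (z := 1 - u) (by linarith) (by linarith),
    tent_of_nonpos (z := -u) (by linarith)]
  ring

lemma kap2 {u : ℝ} (h0 : 1 / 4 ≤ u) (h1 : u ≤ 1 / 2) : kap u = 3 * u - 3 / 2 := by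
  unfold kap
  rw [tent_of_nonpos (z := 1 / 4 - u) (by linarith),
    tent_of_le_half (z := 3 / 4 - u) (by linarith) (by linarith),
    tent_of_half_le (z := 1 - u) (by linarith) (by linarith),
    tent_of_nonpos (z := -u) (by linarith)]
  ring

lemma kap3 {u : ℝ} (h0 : 1 / 2 ≤ u) (h1 : u ≤ 3 / 4) : kap u = u - 1 / 2 := by
  unfold kap
  rw [tent_of_nonpos (z := 1 / 4 - u) (by linarith),
    tent_of_le_half (z := 3 / 4 - u) (by linarith) (by linarith),
    tent_of_le_half (z := 1 - u) (by linarith) (by linarith),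
    tent_of_nonpos (z := -u) (by linarith)]
  ring

lemma kap4 {u : ℝ} (h0 : 3 / 4 ≤ u) (h1 : u ≤ 1) : kap u = 1 - u := by
  unfold kap
  rw [tent_of_nonpos (z := 1 / 4 - u) (by linarith),
    tent_of_nonpos (z := 3 / 4 - u) (by linarith),
    tent_of_le_half (z := 1 - u) (by linarith) (by linarith),
    tent_of_nonpos (z := -u) (by linarith)]
  ring

lemma intervalIntegrable_hw_comp (u a b : ℝ) :
    IntervalIntegrable (fun v => hw (v - u)) volume a b := by
  refine (intervalIntegrable_const (c := (1 : ℝ))).mono_fun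
    ((measurable_hw.comp (measurable_id.sub_const u)).aestronglyMeasurable) ?_
  refine Filter.Eventually.of_forall fun x => ?_
  simpa using abs_hw_le (x - u)

lemma hasDerivAt_tent {z : ℝ} (h0 : z ≠ 0) (h1 : z ≠ 1 / 2) (h2 : z ≠ 1) :
    HasDerivAt tent (hw z) z := by
  rcases lt_or_gt_of_ne h0 with h | h
  · have e : tent =ᶠ[nhds z] fun _ => (0 : ℝ) := by
      filter_upwards [Iio_mem_nhds h] with w hw'
      exact tent_of_nonpos (le_of_lt hw')
    have e2 : hw z = 0 := by
      unfold hw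
      rw [if_neg (by intro hh; linarith [hh.1]), if_neg (by intro hh; linarith [hh.1])]
    rw [e2]
    exact (hasDerivAt_const z (0 : ℝ)).congr_of_eventuallyEq e
  rcases lt_or_gt_of_ne h1 with h' | h'
  · have e : tent =ᶠ[nhds z] fun w => w := by
      filter_upwards [Ioo_mem_nhds h h'] with w hw'
      exact tent_of_le_half (le_of_lt hw'.1) (le_of_lt hw'.2)
    have e2 : hw z = 1 := by
      unfold hw
      rw [if_pos ⟨h.le, h'⟩]
    rw [e2]
    exact (hasDerivAt_id z).congr_of_eventuallyEq e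
  rcases lt_or_gt_of_ne h2 with h'' | h''
  · have e : tent =ᶠ[nhds z] fun w => 1 - w := by
      filter_upwards [Ioo_mem_nhds h' h''] with w hw'
      exact tent_of_half_le (le_of_lt hw'.1) (le_of_lt hw'.2)
    have e2 : hw z = -1 := by
      unfold hw
      rw [if_neg (by intro hh; linarith [hh.2]), if_pos ⟨by linarith, h''⟩]
    rw [e2]
    exact ((hasDerivAt_id z).const_sub 1).congr_of_eventuallyEq e
  · have e : tent =ᶠ[nhds z] fun _ => (0 : ℝ) := by
      filter_upwards [Ioi_mem_nhds h''] with w hw'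
      exact tent_of_one_le (le_of_lt hw')
    have e2 : hw z = 0 := by
      unfold hw
      rw [if_neg (by intro hh; linarith [hh.2]), if_neg (by intro hh; linarith [hh.2])]
    rw [e2]
    exact (hasDerivAt_const z (0 : ℝ)).congr_of_eventuallyEq e

lemma integral_hw (a b : ℝ) : ∫ z in a..b, hw z = tent b - tent a := by
  refine MeasureTheory.integral_eq_of_hasDerivAt_off_countable tent hw
    (s := {0, 1 / 2, 1}) (by simp) continuous_tent.continuousOn ?_ ?_
  · intro x hx
    have h := hx.2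
    simp only [mem_insert_iff, mem_singleton_iff, not_or] at h
    exact hasDerivAt_tent h.1 h.2.1 h.2.2
  · simpa using intervalIntegrable_hw_comp 0 a b

lemma integral_hw_sub (u a b : ℝ) :
    ∫ v in a..b, hw (v - u) = tent (b - u) - tent (a - u) := by
  rw [intervalIntegral.integral_comp_sub_right (fun z => hw z) u, integral_hw]

/-- the cross correlation of the two patterns -/
lemma integral_hw_sw (u : ℝ) : ∫ v in (0 : ℝ)..1, hw (v - u) * sw v = kap u := by
  have key : ∀ a b c : ℝ, a ≤ b → (∀ v ∈ Ioo a b, sw v = c) →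
      IntervalIntegrable (fun v => hw (v - u) * sw v) volume a b ∧
      ∫ v in a..b, hw (v - u) * sw v = c * (tent (b - u) - tent (a - u)) := by
    intro a b c hab hc
    have hae : ∀ᵐ v, v ∈ Ioc a b → hw (v - u) * sw v = c * hw (v - u) := by
      have hb : ∀ᵐ v : ℝ, v ≠ b := by
        simp [ae_iff]
      filter_upwards [hb] with v hv hv'
      rw [hc v ⟨hv'.1, lt_of_le_of_ne hv'.2 hv⟩]; ring
    constructor
    · refine ((intervalIntegrable_const (c := (1 : ℝ))).mono_fun
        (((measurable_hw.comp (measurable_id.sub_const u)).mul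
          measurable_sw).aestronglyMeasurable) ?_)
      refine Filter.Eventually.of_forall fun x => ?_
      have h := mul_le_one₀ (abs_hw_le (x - u)) (abs_nonneg _) (abs_sw_le x)
      rw [← abs_mul] at h
      simpa using h
    · rw [← integral_hw_sub, ← intervalIntegral.integral_const_mul]
      rw [intervalIntegral.integral_of_le hab, intervalIntegral.integral_of_le hab]
      exact setIntegral_congr_ae measurableSet_Ioc hae
  obtain ⟨i1, e1⟩ := key 0 (1 / 4) 1 (by norm_num) (by
    intro v hv; unfold sw; rw [if_pos ⟨hv.1.le, hv.2⟩])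
  obtain ⟨i2, e2⟩ := key (1 / 4) (3 / 4) (-1) (by norm_num) (by
    intro v hv; unfold sw
    rw [if_neg (by intro hh; linarith [hh.2, hv.1]), if_pos ⟨hv.1.le, hv.2⟩])
  obtain ⟨i3, e3⟩ := key (3 / 4) 1 1 (by norm_num) (by
    intro v hv; unfold sw
    rw [if_neg (by intro hh; linarith [hh.2, hv.1]), if_neg (by intro hh; linarith [hh.2, hv.1]),
      if_pos ⟨hv.1.le, hv.2⟩])
  rw [← intervalIntegral.integral_add_adjacent_intervals (i1.trans i2) i3,
    ← intervalIntegral.integral_add_adjacent_intervals i1 i2, e1, e2, e3]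
  unfold kap
  have : (0 : ℝ) - u = -u := by ring
  rw [this]; ring

/-- average over all translations of the grid -/
lemma integral_fract {φ : ℝ → ℝ} (hm : Measurable φ) {C : ℝ} (hC : ∀ v, |φ v| ≤ C)
    (c : ℝ) (n : ℕ) :
    ∫ b in (0 : ℝ)..1, φ (Int.fract (c - 2 ^ n * b)) = ∫ v in (0 : ℝ)..1, φ v := by
  set g : ℝ → ℝ := fun t => φ (Int.fract t) with hg
  have hgm : Measurable g := hm.comp measurable_fract
  have hint : ∀ t₁ t₂, IntervalIntegrable g volume t₁ t₂ := by
    intro t₁ t₂
    refine (intervalIntegrable_const (c := C)).mono_fun hgm.aestronglyMeasurable ?_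
    refine Filter.Eventually.of_forall fun x => ?_
    show |φ (Int.fract x)| ≤ |C|
    exact (hC _).trans (le_abs_self _)
  have hper : Function.Periodic g 1 := by
    intro t
    simp only [hg, Int.fract_add_one]
  have h1 : ∫ b in (0 : ℝ)..1, φ (Int.fract (c - 2 ^ n * b)) = ∫ b in (0 : ℝ)..1, g (c - 2 ^ n * b) :=
    rfl
  have hn : (2 : ℝ) ^ n ≠ 0 := by positivity
  rw [h1, intervalIntegral.integral_comp_sub_mul g hn c]
  have h2 : c - 2 ^ n * 0 = (c - 2 ^ n * 1) + ((2 ^ n : ℕ) : ℤ) • (1 : ℝ) := by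
    simp
  rw [h2, hper.intervalIntegral_add_zsmul_eq _ _ hint, hper.intervalIntegral_add_eq _ 0]
  simp only [zero_add, smul_eq_mul, zsmul_eq_mul]
  have h3 : ∫ x in (0 : ℝ)..1, g x = ∫ v in (0 : ℝ)..1, φ v := by
    refine intervalIntegral.integral_congr_ae ?_
    have hb : ∀ᵐ v : ℝ, v ≠ 1 := by simp [ae_iff]
    filter_upwards [hb] with v hv hv'
    rw [uIoc_of_le zero_le_one] at hv'
    simp only [hg]
    rw [Int.fract_eq_self.2 ⟨hv'.1.le, lt_of_le_of_ne hv'.2 hv⟩]
  rw [h3]
  push_cast
  field_simp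

/-- kernel of the grid `(a, b)` (translation `b`, top length `a`) at level `j` -/
noncomputable def KX (j : ℕ) (a b x y : ℝ) : ℝ :=
  2 ^ j / a * (hw (Int.fract (2 ^ j * (x / a - b)) - 2 ^ j * (x - y) / a) *
    sw (Int.fract (2 ^ j * (x / a - b))))

/-- the standard dyadic shift at level `j` -/
noncomputable def SH (j : ℕ) (G : ℝ → ℂ) (z : ℝ) : ℂ :=
  2 ^ j * (∫ w, (hw (2 ^ j * w - ⌊2 ^ j * z⌋) : ℂ) * G w) * (sw (Int.fract (2 ^ j * z)) : ℂ)

lemma SH_eq (j : ℕ) {a : ℝ} (ha : 0 < a) (b x : ℝ) (F : ℝ → ℂ) :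
    SH j (fun z => F (a * (z + b))) (x / a - b) = ∫ y, (KX j a b x y : ℂ) * F y := by
  unfold SH
  set v := Int.fract (2 ^ j * (x / a - b)) with hv
  set Φ : ℝ → ℂ := fun y => (hw (v - 2 ^ j * (x - y) / a) : ℂ) * F y with hΦ
  have h1 : ∀ w : ℝ, (hw (2 ^ j * w - ⌊2 ^ j * (x / a - b)⌋) : ℂ) * F (a * (w + b)) =
      Φ (a * (w + b)) := by
    intro w
    simp only [hΦ]
    congr 3
    have : v = 2 ^ j * (x / a - b) - ⌊2 ^ j * (x / a - b)⌋ := by
      rw [hv]; exact (Int.self_sub_floor _).symm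
    rw [this]
    field_simp
    ring
  simp_rw [h1]
  have h2 : ∫ w, Φ (a * (w + b)) = ∫ w, Φ (a * w) :=
    integral_add_right_eq_self (fun w => Φ (a * w)) b
  rw [h2, MeasureTheory.Measure.integral_comp_mul_left]
  rw [abs_of_pos (inv_pos.2 ha)]
  rw [Complex.real_smul]
  have h3 : ∀ y, (KX j a b x y : ℂ) * F y = (2 ^ j / a * sw v : ℂ) * Φ y := by
    intro y
    unfold KX
    simp only [hΦ, ← hv]
    push_cast
    ring
  simp_rw [h3]
  rw [MeasureTheory.integral_const_mul]
  push_cast
  field_simp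

lemma abs_KX_le (j : ℕ) {a : ℝ} (ha : 0 < a) (b x y : ℝ) : |KX j a b x y| ≤ 2 ^ j / a := by
  unfold KX
  rw [abs_mul, abs_mul, abs_of_pos (show (0 : ℝ) < 2 ^ j / a by positivity)]
  have h := mul_le_mul (abs_hw_le (Int.fract (2 ^ j * (x / a - b)) - 2 ^ j * (x - y) / a))
    (abs_sw_le (Int.fract (2 ^ j * (x / a - b)))) (abs_nonneg _) zero_le_one
  have h' : (0 : ℝ) ≤ 2 ^ j / a := by positivity
  nlinarith [mul_le_mul_of_nonneg_left h h']

lemma hw_mul_sw_eq_zero {u v : ℝ} (h : 1 ≤ |u|) : hw (v - u) * sw v = 0 := by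
  by_cases hv : 0 ≤ v ∧ v < 1
  · have e : hw (v - u) = 0 := by
      unfold hw
      rcases le_abs.1 h with h' | h'
      · rw [if_neg (by intro hh; linarith [hh.1, hv.2]),
          if_neg (by intro hh; linarith [hh.1, hv.2])]
      · rw [if_neg (by intro hh; linarith [hh.2, hv.1]),
          if_neg (by intro hh; linarith [hh.2, hv.1])]
    rw [e, zero_mul]
  · have e : sw v = 0 := by
      unfold sw
      rw [if_neg (by intro hh; exact hv ⟨hh.1, by linarith [hh.2]⟩),
        if_neg (by intro hh; exact hv ⟨by linarith [hh.1], by linarith [hh.2]⟩),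
        if_neg (by intro hh; exact hv ⟨by linarith [hh.1], hh.2⟩)]
    rw [e, mul_zero]

lemma KX_eq_zero (j : ℕ) {a : ℝ} (ha : 0 < a) (b : ℝ) {x y : ℝ} (h : a / 2 ^ j ≤ |x - y|) :
    KX j a b x y = 0 := by
  unfold KX
  rw [hw_mul_sw_eq_zero, mul_zero]
  rw [abs_div, abs_mul, abs_of_pos ha, abs_of_pos (show (0 : ℝ) < 2 ^ j by positivity)]
  rw [le_div_iff₀ ha]
  rw [div_le_iff₀ (by positivity)] at h
  linarith

lemma integral_KX (j : ℕ) (a x y : ℝ) :
    ∫ b in (0 : ℝ)..1, KX j a b x y = 2 ^ j / a * kap (2 ^ j * (x - y) / a) := by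
  unfold KX
  rw [intervalIntegral.integral_const_mul]
  congr 1
  have h : ∀ b : ℝ, 2 ^ j * (x / a - b) = 2 ^ j * x / a - 2 ^ j * b := by intro b; ring
  simp_rw [h]
  have hm : Measurable fun v => hw (v - 2 ^ j * (x - y) / a) * sw v :=
    (measurable_hw.comp (measurable_id.sub_const _)).mul measurable_sw
  have hC : ∀ v, |hw (v - 2 ^ j * (x - y) / a) * sw v| ≤ 1 := by
    intro v
    rw [abs_mul]
    exact mul_le_one₀ (abs_hw_le _) (abs_nonneg _) (abs_sw_le _)
  rw [integral_fract hm hC (2 ^ j * x / a) j, integral_hw_sw]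

end Vale.Agent.P091.T.H827
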