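import Vale.Agent.P091.T.H827.Pet1

/-!
# P091 / T / H827 / Pet2: the primitive `Th`, the kernels `kk`, PET1 and PET2
-/

namespace Vale.Agent.P091.T.H827

open MeasureTheory Set intervalIntegral

lemma kap_zero : kap 0 = 0 := by
  have := kap1 (u := 0) le_rfl (by norm_num)
  simpa using this

/-- `kap` is `6`-Lipschitz -/
lemma abs_kap_sub_le (u v : ℝ) : |kap u - kap v| ≤ 6 * |u - v| := by
  have h1 := abs_tent_sub_le (1 / 4 - u) (1 / 4 - v)
  have h2 := abs_tent_sub_le (3 / 4 - u) (3 / 4 - v)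
  have h3 := abs_tent_sub_le (1 - u) (1 - v)
  have h4 := abs_tent_sub_le (-u) (-v)
  have e1 : |1 / 4 - u - (1 / 4 - v)| = |u - v| := by rw [abs_sub_comm]; congr 1; ring
  have e2 : |3 / 4 - u - (3 / 4 - v)| = |u - v| := by rw [abs_sub_comm]; congr 1; ring
  have e3 : |1 - u - (1 - v)| = |u - v| := by rw [abs_sub_comm]; congr 1; ring
  have e4 : |(-u) - (-v)| = |u - v| := by rw [abs_sub_comm]; congr 1; ring
  rw [e1] at h1
  rw [e2] at h2
  rw [e3] at h3
  rw [e4] at h4
  rw [abs_le] at *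
  unfold kap
  constructor <;> linarith [h1.1, h1.2, h2.1, h2.2, h3.1, h3.2, h4.1, h4.2]

lemma abs_kap_le (u : ℝ) : |kap u| ≤ 6 * |u| := by
  have := abs_kap_sub_le u 0
  rwa [kap_zero, sub_zero, sub_zero] at this

lemma abs_kap_le' (u : ℝ) : |kap u| ≤ 3 / 2 := by
  have h1 := tent_nonneg (1 / 4 - u)
  have h2 := tent_nonneg (3 / 4 - u)
  have h3 := tent_nonneg (1 - u)
  have h4 := tent_nonneg (-u)
  have g1 := tent_le_half (1 / 4 - u)
  have g2 := tent_le_half (3 / 4 - u)
  have g3 := tent_le_half (1 - u)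
  have g4 := tent_le_half (-u)
  unfold kap
  rw [abs_le]
  constructor <;> linarith

/-- the primitive of `kap` -/
noncomputable def Th (u : ℝ) : ℝ := ∫ v in (0 : ℝ)..u, kap v

lemma Th_zero : Th 0 = 0 := by simp [Th]

lemma hasDerivAt_Th (u : ℝ) : HasDerivAt Th (kap u) u :=
  integral_hasDerivAt_right (continuous_kap.intervalIntegrable _ _)
    (continuous_kap.stronglyMeasurableAtFilter _ _) continuous_kap.continuousAt

lemma continuous_Th : Continuous Th :=
  continuous_iff_continuousAt.2 fun u => (hasDerivAt_Th u).continuousAt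

lemma Th_neg (u : ℝ) : Th (-u) = Th u := by
  unfold Th
  have h := intervalIntegral.integral_comp_neg (f := kap) (a := 0) (b := u)
  simp only [neg_zero] at h
  rw [intervalIntegral.integral_symm, ← h]
  simp only [kap_odd]
  simp

lemma Th_abs (u : ℝ) : Th |u| = Th u := by
  rcases abs_choice u with h | h <;> rw [h]
  exact Th_neg u

lemma Th_one : Th 1 = -1 / 8 := by
  unfold Th
  have i : ∀ a b : ℝ, IntervalIntegrable kap volume a b :=
    fun a b => continuous_kap.intervalIntegrable _ _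
  rw [← intervalIntegral.integral_add_adjacent_intervals (i 0 (3 / 4)) (i (3 / 4) 1),
    ← intervalIntegral.integral_add_adjacent_intervals (i 0 (1 / 2)) (i (1 / 2) (3 / 4)),
    ← intervalIntegral.integral_add_adjacent_intervals (i 0 (1 / 4)) (i (1 / 4) (1 / 2))]
  have e1 : ∫ v in (0 : ℝ)..(1 / 4), kap v = ∫ v in (0 : ℝ)..(1 / 4), -3 * v := by
    refine intervalIntegral.integral_congr fun v hv => ?_
    rw [uIcc_of_le (by norm_num)] at hv
    exact kap1 hv.1 hv.2
  have e2 : ∫ v in (1 / 4 : ℝ)..(1 / 2), kap v = ∫ v in (1 / 4 : ℝ)..(1 / 2), (3 * v - 3 / 2) := by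
    refine intervalIntegral.integral_congr fun v hv => ?_
    rw [uIcc_of_le (by norm_num)] at hv
    exact kap2 hv.1 hv.2
  have e3 : ∫ v in (1 / 2 : ℝ)..(3 / 4), kap v = ∫ v in (1 / 2 : ℝ)..(3 / 4), (v - 1 / 2) := by
    refine intervalIntegral.integral_congr fun v hv => ?_
    rw [uIcc_of_le (by norm_num)] at hv
    exact kap3 hv.1 hv.2
  have e4 : ∫ v in (3 / 4 : ℝ)..1, kap v = ∫ v in (3 / 4 : ℝ)..1, (1 - v) := by
    refine intervalIntegral.integral_congr fun v hv => ?_
    rw [uIcc_of_le (by norm_num)] at hv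
    exact kap4 hv.1 hv.2
  rw [e1, e2, e3, e4]
  rw [intervalIntegral.integral_const_mul,
    intervalIntegral.integral_sub (Continuous.intervalIntegrable (by fun_prop) _ _)
      (Continuous.intervalIntegrable (by fun_prop) _ _),
    intervalIntegral.integral_sub (Continuous.intervalIntegrable (by fun_prop) _ _)
      (Continuous.intervalIntegrable (by fun_prop) _ _),
    intervalIntegral.integral_sub (Continuous.intervalIntegrable (by fun_prop) _ _)
      (Continuous.intervalIntegrable (by fun_prop) _ _),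
    intervalIntegral.integral_const_mul]
  simp only [integral_id, intervalIntegral.integral_const, smul_eq_mul]
  norm_num

lemma Th_of_one_le {u : ℝ} (h : 1 ≤ |u|) : Th u = -1 / 8 := by
  rw [← Th_abs, ← Th_one]
  unfold Th
  have i : ∀ a b : ℝ, IntervalIntegrable kap volume a b :=
    fun a b => continuous_kap.intervalIntegrable _ _
  rw [← intervalIntegral.integral_add_adjacent_intervals (i 0 1) (i 1 |u|)]
  have : ∫ v in (1 : ℝ)..|u|, kap v = ∫ v in (1 : ℝ)..|u|, (0 : ℝ) := by
    refine intervalIntegral.integral_congr fun v hv => ?_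
    rw [uIcc_of_le h] at hv
    exact kap_of_one_le hv.1
  rw [this]
  simp

lemma abs_Th_le (u : ℝ) : |Th u| ≤ 6 * u ^ 2 := by
  have h : ‖∫ v in (0 : ℝ)..u, kap v‖ ≤ (6 * |u|) * |u - 0| := by
    refine intervalIntegral.norm_integral_le_of_norm_le_const fun v hv => ?_
    rw [Real.norm_eq_abs]
    refine (abs_kap_le v).trans ?_
    have hv' : |v| ≤ |u| := by
      rcases le_total 0 u with h | h
      · rw [uIoc_of_le h] at hv
        rw [abs_of_pos hv.1, abs_of_nonneg h]; exact hv.2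
      · rw [uIoc_of_ge h] at hv
        rw [abs_of_nonpos hv.2, abs_of_nonpos h]; linarith [hv.1]
    linarith
  rw [sub_zero, Real.norm_eq_abs] at h
  unfold Th
  refine h.trans (le_of_eq ?_)
  rw [mul_assoc, abs_mul_abs_self]; ring

lemma abs_Th_le' (u : ℝ) : |Th u| ≤ 3 / 2 := by
  rw [← Th_abs]
  rcases le_total 1 |u| with h | h
  · rw [Th_of_one_le (by rwa [abs_abs])]; norm_num [abs_of_pos, abs_div]
  · have h : ‖∫ v in (0 : ℝ)..|u|, kap v‖ ≤ 3 / 2 * |(|u| - 0)| := by
      refine intervalIntegral.norm_integral_le_of_norm_le_const fun v _ => ?_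
      exact abs_kap_le' v
    rw [sub_zero, abs_abs, Real.norm_eq_abs] at h
    unfold Th
    linarith [abs_nonneg u]

/-- the kernel of scale `2^-j`, averaged over dilations -/
noncomputable def kk (j : ℤ) (t : ℝ) : ℝ :=
  ∫ r in (1 : ℝ)..2, 2 ^ j / r * kap (2 ^ j * t / r) / r

lemma continuousOn_kk_integrand (j : ℤ) (t : ℝ) :
    ContinuousOn (fun r : ℝ => 2 ^ j / r * kap (2 ^ j * t / r) / r) (Icc 1 2) := by
  have h := continuous_kap
  refine ContinuousOn.div (ContinuousOn.mul ?_ ?_) continuousOn_id ?_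
  · exact continuousOn_const.div continuousOn_id fun r hr => (lt_of_lt_of_le one_pos hr.1).ne'
  · exact h.comp_continuousOn (continuousOn_const.div continuousOn_id fun r hr =>
      (lt_of_lt_of_le one_pos hr.1).ne')
  · intro r hr; exact (lt_of_lt_of_le one_pos hr.1).ne'

lemma kk_eq (j : ℤ) {t : ℝ} (ht : t ≠ 0) :
    kk j t = (Th (2 ^ j * t) - Th (2 ^ (j - 1) * t)) / t := by
  unfold kk
  have hd : ∀ r ∈ uIcc (1 : ℝ) 2, HasDerivAt (fun r => -(Th (2 ^ j * t / r)) / t)
      (2 ^ j / r * kap (2 ^ j * t / r) / r) r := by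
    intro r hr
    rw [uIcc_of_le (by norm_num)] at hr
    have hr0 : r ≠ 0 := by have := hr.1; linarith
    have h1 : HasDerivAt (fun r : ℝ => 2 ^ j * t / r) (-(2 ^ j * t) / r ^ 2) r := by
      have := (hasDerivAt_inv hr0).const_mul (2 ^ j * t)
      refine this.congr_deriv ?_
      field_simp
    have h2 := (((hasDerivAt_Th (2 ^ j * t / r)).comp r h1).neg).div_const t
    refine h2.congr_deriv ?_
    field_simp
  have hi : IntervalIntegrable (fun r : ℝ => 2 ^ j / r * kap (2 ^ j * t / r) / r) volume 1 2 := by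
    refine ContinuousOn.intervalIntegrable ?_
    rw [uIcc_of_le (by norm_num)]
    exact continuousOn_kk_integrand j t
  rw [intervalIntegral.integral_eq_sub_of_hasDerivAt hd hi]
  have e : (2 : ℝ) ^ (j - 1) * t = 2 ^ j * t / 2 := by
    rw [zpow_sub₀ (by norm_num)]; ring
  rw [e, div_one]
  ring

lemma kk_zero (j : ℤ) : kk j 0 = 0 := by
  unfold kk
  simp [kap_zero]

/-- PET2: telescoping in the scales -/
theorem sum_kk (a : ℤ) (n : ℕ) {t : ℝ} (ht : t ≠ 0) :
    ∑ i ∈ Finset.range n, kk (a + i) t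
      = (Th (2 ^ (a + n - 1) * t) - Th (2 ^ (a - 1) * t)) / t := by
  induction n with
  | zero => simp
  | succ n ih =>
    rw [Finset.sum_range_succ, ih, kk_eq _ ht]
    have e : a + ((n + 1 : ℕ) : ℤ) - 1 = a + n := by push_cast; ring
    rw [e]; ring

lemma abs_kk_le (j : ℤ) (t : ℝ) : |kk j t| ≤ 3 / 2 * 2 ^ j := by
  unfold kk
  have h : ‖∫ r in (1 : ℝ)..2, 2 ^ j / r * kap (2 ^ j * t / r) / r‖ ≤
      (3 / 2 * 2 ^ j) * |2 - 1| := by
    refine intervalIntegral.norm_integral_le_of_norm_le_const fun r hr => ?_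
    rw [uIoc_of_le (by norm_num)] at hr
    have hr1 : (1 : ℝ) ≤ r := hr.1.le
    have hr0 : (0 : ℝ) < r := by linarith
    rw [Real.norm_eq_abs, abs_div, abs_mul, abs_div, abs_of_pos hr0,
      abs_of_pos (show (0 : ℝ) < 2 ^ j by positivity)]
    have h1 := abs_kap_le' (2 ^ j * t / r)
    have h2 : (2 : ℝ) ^ j / r ≤ 2 ^ j := div_le_self (by positivity) hr1
    calc 2 ^ j / r * |kap (2 ^ j * t / r)| / r ≤ 2 ^ j / r * |kap (2 ^ j * t / r)| :=
          div_le_self (by positivity) hr1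
      _ ≤ 2 ^ j * (3 / 2) := mul_le_mul h2 h1 (abs_nonneg _) (by positivity)
      _ = _ := by ring
  rw [Real.norm_eq_abs] at h
  refine h.trans (le_of_eq ?_)
  norm_num

lemma kk_eq_zero (j : ℤ) {t : ℝ} (ht : 2 ≤ 2 ^ j * |t|) : kk j t = 0 := by
  have ht0 : t ≠ 0 := by rintro rfl; simp at ht; linarith
  rw [kk_eq j ht0, Th_of_one_le, Th_of_one_le, sub_self, zero_div]
  · rw [zpow_sub₀ (by norm_num), abs_mul, abs_of_pos (by positivity)]
    rw [zpow_one]; linarith
  · rw [abs_mul, abs_of_pos (by positivity)]; linarith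

lemma abs_kk_sub_le (j : ℤ) (t s : ℝ) : |kk j t - kk j s| ≤ 6 * 4 ^ j * |t - s| := by
  have hi : ∀ t : ℝ,
      IntervalIntegrable (fun r : ℝ => 2 ^ j / r * kap (2 ^ j * t / r) / r) volume 1 2 := by
    intro t
    refine ContinuousOn.intervalIntegrable ?_
    rw [uIcc_of_le (by norm_num)]
    exact continuousOn_kk_integrand j t
  unfold kk
  rw [← intervalIntegral.integral_sub (hi t) (hi s)]
  have h : ‖∫ r in (1 : ℝ)..2, (2 ^ j / r * kap (2 ^ j * t / r) / r -
      2 ^ j / r * kap (2 ^ j * s / r) / r)‖ ≤ (6 * 4 ^ j * |t - s|) * |2 - 1| := by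
    refine intervalIntegral.norm_integral_le_of_norm_le_const fun r hr => ?_
    rw [uIoc_of_le (by norm_num)] at hr
    have hr1 : (1 : ℝ) ≤ r := hr.1.le
    have hr0 : (0 : ℝ) < r := by linarith
    have e : 2 ^ j / r * kap (2 ^ j * t / r) / r - 2 ^ j / r * kap (2 ^ j * s / r) / r
        = 2 ^ j / r * (kap (2 ^ j * t / r) - kap (2 ^ j * s / r)) / r := by ring
    have h0 : (0 : ℝ) < 2 ^ j := by positivity
    rw [e, Real.norm_eq_abs, abs_div, abs_mul, abs_div, abs_of_pos hr0, abs_of_pos h0]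
    have h1 := abs_kap_sub_le (2 ^ j * t / r) (2 ^ j * s / r)
    have e2 : |2 ^ j * t / r - 2 ^ j * s / r| = 2 ^ j * |t - s| / r := by
      rw [show 2 ^ j * t / r - 2 ^ j * s / r = 2 ^ j * (t - s) / r by ring, abs_div, abs_mul,
        abs_of_pos hr0, abs_of_pos h0]
    rw [e2] at h1
    have h2 : (2 : ℝ) ^ j / r ≤ 2 ^ j := div_le_self (by positivity) hr1
    have h3 : 2 ^ j * |t - s| / r ≤ 2 ^ j * |t - s| := div_le_self (by positivity) hr1
    calc 2 ^ j / r * |kap (2 ^ j * t / r) - kap (2 ^ j * s / r)| / r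
        ≤ 2 ^ j / r * |kap (2 ^ j * t / r) - kap (2 ^ j * s / r)| :=
          div_le_self (by positivity) hr1
      _ ≤ 2 ^ j * (6 * (2 ^ j * |t - s|)) :=
          mul_le_mul h2 (h1.trans (by linarith)) (abs_nonneg _) (by positivity)
      _ = 6 * (2 ^ j * 2 ^ j) * |t - s| := by ring
      _ = 6 * 4 ^ j * |t - s| := by
          rw [← mul_zpow]; norm_num
  rw [Real.norm_eq_abs] at h
  refine h.trans (le_of_eq ?_)
  norm_num

end Vale.Agent.P091.T.H827
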