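import Vale.Agent.P091.T.H827.Pet2

/-!
# P091 / T / H827 / Pet3: averaging over all the grids (PET1) and the Minkowski form

The grid with parameters `(r, b)` has the nodes `[k 2^-j, (k+1) 2^-j)` of the standard grid,
carried by the map `z ↦ r 2^-J0 (z + b)`.
-/

namespace Vale.Agent.P091.T.H827

open MeasureTheory Set intervalIntegral
open scoped ENNReal

lemma measurable_KX (j : ℕ) :
    Measurable (fun p : ℝ × ℝ × ℝ × ℝ => KX j p.1 p.2.1 p.2.2.1 p.2.2.2) := by
  unfold KX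
  have h1 : Measurable (fun p : ℝ × ℝ × ℝ × ℝ => (2 : ℝ) ^ j * (p.2.2.1 / p.1 - p.2.1)) := by
    fun_prop
  have h2 : Measurable (fun p : ℝ × ℝ × ℝ × ℝ => (2 : ℝ) ^ j * (p.2.2.1 - p.2.2.2) / p.1) := by
    fun_prop
  have h3 : Measurable (fun p : ℝ × ℝ × ℝ × ℝ => (2 : ℝ) ^ j / p.1) := by
    fun_prop
  have h4 : Measurable (fun p : ℝ × ℝ × ℝ × ℝ =>
      Int.fract ((2 : ℝ) ^ j * (p.2.2.1 / p.1 - p.2.1))) := measurable_fract.comp h1
  exact h3.mul ((measurable_hw.comp (h4.sub h2)).mul (measurable_sw.comp h4))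

/-- the space of the grids: `r ∈ (1, 2]`, `b ∈ (0, 1]` -/
noncomputable def muG : Measure (ℝ × ℝ) :=
  (volume.restrict (Ioc (1 : ℝ) 2)).prod (volume.restrict (Ioc (0 : ℝ) 1))

instance : IsFiniteMeasure muG := by unfold muG; infer_instance

lemma muG_univ : muG univ = 1 := by
  unfold muG
  rw [← univ_prod_univ, Measure.prod_prod, Measure.restrict_apply_univ,
    Measure.restrict_apply_univ, Real.volume_Ioc, Real.volume_Ioc]
  norm_num

lemma muG_mem : ∀ᵐ p ∂muG, p.1 ∈ Ioc (1 : ℝ) 2 ∧ p.2 ∈ Ioc (0 : ℝ) 1 := by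
  have h : muG = (volume.prod volume).restrict (Ioc (1 : ℝ) 2 ×ˢ Ioc (0 : ℝ) 1) := by
    unfold muG; rw [Measure.prod_restrict]
  rw [h]
  filter_upwards [ae_restrict_mem (measurableSet_Ioc.prod measurableSet_Ioc)] with p hp
  exact hp

/-- the length of the top nodes -/
noncomputable def top (J0 : ℤ) (r : ℝ) : ℝ := r * 2 ^ (-J0)

lemma measurable_top (J0 : ℤ) : Measurable (top J0) := by unfold top; fun_prop

lemma top_pos (J0 : ℤ) {r : ℝ} (hr : 0 < r) : 0 < top J0 r := by unfold top; positivity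

lemma two_pow_div_top (J0 : ℤ) (j : ℕ) (r : ℝ) :
    (2 : ℝ) ^ j / top J0 r = 2 ^ (J0 + j) / r := by
  unfold top
  rw [zpow_add₀ (by norm_num), zpow_neg, zpow_natCast, div_mul_eq_div_div, div_inv_eq_mul]
  ring

/-- the standard weight hypothesis: `w` does not change the average over the translations -/
def GW (J0 : ℤ) (j : ℕ) (x : ℝ) (w : ℝ → ℝ → ℝ) : Prop :=
  ∀ r ∈ Ioc (1 : ℝ) 2, ∀ y, ∫ b in (0 : ℝ)..1, KX j (top J0 r) b x y * w r b
    = 2 ^ j / top J0 r * kap (2 ^ j * (x - y) / top J0 r)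

lemma gw_one (J0 : ℤ) (j : ℕ) (x : ℝ) : GW J0 j x (fun _ _ => 1) := by
  intro r _ y
  simp only [mul_one]
  exact integral_KX j (top J0 r) x y

lemma abs_KX_top_le (J0 : ℤ) (j : ℕ) {r : ℝ} (hr : 1 ≤ r) (b x y : ℝ) :
    |KX j (top J0 r) b x y| ≤ 2 ^ (J0 + j) := by
  have hr0 : 0 < r := by linarith
  refine (abs_KX_le j (top_pos J0 hr0) b x y).trans ?_
  rw [two_pow_div_top]
  exact div_le_self (by positivity) hr

/-- PET1, the average over the grids, with a weight -/
theorem pet1 (J0 : ℤ) (j : ℕ) (x : ℝ) {F : ℝ → ℂ} (hF : Integrable F) {w : ℝ → ℝ → ℝ}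
    (hw : Measurable (Function.uncurry w)) {C : ℝ} (hC : ∀ r b, |w r b| ≤ C)
    (hG : GW J0 j x w) :
    ∫ p, (∫ y, (KX j (top J0 p.1) p.2 x y : ℂ) * F y) * (w p.1 p.2 / p.1 : ℝ) ∂muG
      = ∫ y, (kk (J0 + j) (x - y) : ℂ) * F y := by
  have hC0 : 0 ≤ C := (abs_nonneg _).trans (hC 0 0)
  set H : (ℝ × ℝ) → ℝ → ℝ := fun p y => KX j (top J0 p.1) p.2 x y * (w p.1 p.2 / p.1) with hH
  have hHm : Measurable (Function.uncurry H) := by
    have h1 : Measurable (fun q : (ℝ × ℝ) × ℝ => KX j (top J0 q.1.1) q.1.2 x q.2) :=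
      (measurable_KX j).comp (((measurable_top J0).comp (measurable_fst.comp measurable_fst)).prodMk
        ((measurable_snd.comp measurable_fst).prodMk (measurable_const.prodMk measurable_snd)))
    have h2 : Measurable (fun q : (ℝ × ℝ) × ℝ => w q.1.1 q.1.2) := hw.comp measurable_fst
    have h3 : Measurable (fun q : (ℝ × ℝ) × ℝ => q.1.1) := measurable_fst.comp measurable_fst
    exact h1.mul (h2.div h3)
  have hHb : ∀ᵐ p ∂muG, ∀ y, |H p y| ≤ 2 ^ (J0 + j) * C := by
    filter_upwards [muG_mem] with p hp y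
    have hp1 : 1 ≤ p.1 := hp.1.1.le
    have hp0 : 0 < p.1 := by linarith
    simp only [hH]
    rw [abs_mul, abs_div, abs_of_pos hp0]
    refine mul_le_mul (abs_KX_top_le J0 j hp1 _ _ _) ?_ (by positivity) (by positivity)
    exact (div_le_self (abs_nonneg _) hp1).trans (hC _ _)
  have e1 : ∀ p : ℝ × ℝ, (∫ y, (KX j (top J0 p.1) p.2 x y : ℂ) * F y) * (w p.1 p.2 / p.1 : ℝ)
      = ∫ y, (H p y : ℂ) * F y := by
    intro p
    rw [← MeasureTheory.integral_mul_const]
    refine integral_congr_ae (Filter.Eventually.of_forall fun y => ?_)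
    simp only [hH]
    push_cast
    ring
  simp_rw [e1]
  have hint : Integrable (fun q : (ℝ × ℝ) × ℝ => (H q.1 q.2 : ℂ) * F q.2) (muG.prod volume) := by
    have h1 : Integrable (fun q : (ℝ × ℝ) × ℝ => F q.2) (muG.prod volume) := hF.comp_snd muG
    refine h1.bdd_mul (c := 2 ^ (J0 + j) * C)
      ((Complex.measurable_ofReal.comp hHm).aestronglyMeasurable) ?_
    have h2 : ∀ᵐ q ∂(muG.prod (volume : Measure ℝ)), ∀ y, |H q.1 y| ≤ 2 ^ (J0 + j) * C :=
      Measure.quasiMeasurePreserving_fst.ae hHb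
    filter_upwards [h2] with q hq
    rw [Complex.norm_real]
    exact hq q.2
  rw [integral_integral_swap hint]
  refine integral_congr_ae (Filter.Eventually.of_forall fun y => ?_)
  simp only
  rw [MeasureTheory.integral_mul_const]
  congr 1
  rw [integral_complex_ofReal]
  congr 1
  have hi : Integrable (fun p : ℝ × ℝ => H p y) muG := by
    refine Integrable.of_bound (C := 2 ^ (J0 + j) * C)
      ((hHm.comp (measurable_id.prodMk measurable_const)).aestronglyMeasurable) ?_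
    filter_upwards [hHb] with p hp
    exact hp y
  unfold muG at hi ⊢
  rw [MeasureTheory.integral_prod _ hi]
  unfold kk
  rw [intervalIntegral.integral_of_le (by norm_num)]
  refine setIntegral_congr_fun measurableSet_Ioc fun r hr => ?_
  simp only [hH]
  rw [← intervalIntegral.integral_of_le zero_le_one]
  have e2 : ∀ b : ℝ, KX j (top J0 r) b x y * (w r b / r) = (KX j (top J0 r) b x y * w r b) / r :=
    fun b => by ring
  have e3 : (2 : ℝ) ^ j * (x - y) / top J0 r = 2 ^ (J0 + j) * (x - y) / r := by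
    rw [mul_div_right_comm, two_pow_div_top, mul_div_right_comm]
  simp_rw [e2]
  rw [intervalIntegral.integral_div, hG r hr y, e3, two_pow_div_top]


lemma measurable_shiftInt (J0 : ℤ) (j : ℕ) {F : ℝ → ℝ → ℂ}
    (hF : Measurable (Function.uncurry F)) :
    StronglyMeasurable (fun q : ℝ × (ℝ × ℝ) =>
      ∫ y, (KX j (top J0 q.2.1) q.2.2 q.1 y : ℂ) * F q.1 y) := by
  have h1 : Measurable (fun q : (ℝ × (ℝ × ℝ)) × ℝ =>
      KX j (top J0 q.1.2.1) q.1.2.2 q.1.1 q.2) :=
    (measurable_KX j).comp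
      (((measurable_top J0).comp (measurable_fst.comp (measurable_snd.comp measurable_fst))).prodMk
      ((measurable_snd.comp (measurable_snd.comp measurable_fst)).prodMk
        ((measurable_fst.comp measurable_fst).prodMk measurable_snd)))
  have h2 : Measurable (fun q : (ℝ × (ℝ × ℝ)) × ℝ => F q.1.1 q.2) :=
    hF.comp ((measurable_fst.comp measurable_fst).prodMk measurable_snd)
  have h3 : StronglyMeasurable (fun q : (ℝ × (ℝ × ℝ)) × ℝ =>
      (KX j (top J0 q.1.2.1) q.1.2.2 q.1.1 q.2 : ℂ) * F q.1.1 q.2) :=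
    ((Complex.measurable_ofReal.comp h1).mul h2).stronglyMeasurable
  exact h3.integral_prod_right'

/-- **PET1, Minkowski form.**  If the bound holds on every grid, it holds for the average. -/
theorem pet1_mink (J0 : ℤ) (n : ℕ) {F : ℝ → ℝ → ℂ} (hF : Measurable (Function.uncurry F))
    (hFi : ∀ x, Integrable (F x)) {c : ℕ → ℝ → ℂ} (hc : ∀ j, Measurable (c j))
    {w : ℕ → ℝ → ℝ → ℝ → ℝ} (hw : ∀ j, Measurable fun q : ℝ × (ℝ × ℝ) => w j q.1 q.2.1 q.2.2)
    {C : ℝ} (hC : ∀ j x r b, |w j x r b| ≤ C)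
    (hG : ∀ j x, c j x ≠ 0 → GW J0 j x (w j x))
    (G : Set ℝ) (B : ℝ≥0∞)
    (hB : ∀ r ∈ Ioc (1 : ℝ) 2, ∀ b ∈ Ioc (0 : ℝ) 1,
      ∫⁻ x in G, ‖∑ j ∈ Finset.range n, c j x *
        (SH j (fun z => F x (top J0 r * (z + b))) (x / top J0 r - b) * (w j x r b : ℂ))‖ₑ ≤ B) :
    ∫⁻ x in G, ‖∑ j ∈ Finset.range n, c j x * ∫ y, (kk (J0 + j) (x - y) : ℂ) * F x y‖ₑ ≤ B := by
  set Ψ : ℕ → ℝ → (ℝ × ℝ) → ℂ := fun j x p =>
    (∫ y, (KX j (top J0 p.1) p.2 x y : ℂ) * F x y) * (w j x p.1 p.2 / p.1 : ℝ) with hΨ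
  have mΨ : ∀ j, Measurable fun q : ℝ × (ℝ × ℝ) => Ψ j q.1 q.2 := by
    intro j
    have h1 := (measurable_shiftInt J0 j hF).measurable
    have h2 : Measurable fun q : ℝ × (ℝ × ℝ) => (w j q.1 q.2.1 q.2.2 / q.2.1 : ℝ) :=
      (hw j).div (measurable_fst.comp measurable_snd)
    exact h1.mul (Complex.measurable_ofReal.comp h2)
  have iΨ : ∀ j x, Integrable (Ψ j x) muG := by
    intro j x
    have hC0 : 0 ≤ C := (abs_nonneg _).trans (hC 0 0 0 0)
    refine Integrable.of_bound (C := (2 ^ (J0 + j) * ∫ y, ‖F x y‖) * C)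
      (((mΨ j).comp (measurable_const.prodMk measurable_id)).aestronglyMeasurable) ?_
    filter_upwards [muG_mem] with p hp
    have hp1 : 1 ≤ p.1 := hp.1.1.le
    have hp0 : 0 < p.1 := by linarith
    simp only [hΨ]
    rw [norm_mul, Complex.norm_real, Real.norm_eq_abs, abs_div, abs_of_pos hp0]
    refine mul_le_mul ?_ ((div_le_self (abs_nonneg _) hp1).trans (hC _ _ _ _)) (by positivity)
      (by positivity)
    rw [← MeasureTheory.integral_const_mul]
    refine norm_integral_le_of_norm_le ((hFi x).norm.const_mul _) ?_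
    refine Filter.Eventually.of_forall fun y => ?_
    rw [norm_mul, Complex.norm_real, Real.norm_eq_abs]
    exact mul_le_mul_of_nonneg_right (abs_KX_top_le J0 j hp1 _ _ _) (norm_nonneg _)
  have key : ∀ x, ∑ j ∈ Finset.range n, c j x * ∫ y, (kk (J0 + j) (x - y) : ℂ) * F x y
      = ∫ p, ∑ j ∈ Finset.range n, c j x * Ψ j x p ∂muG := by
    intro x
    rw [MeasureTheory.integral_finsetSum _ fun j _ => (iΨ j x).const_mul _]
    refine Finset.sum_congr rfl fun j _ => ?_
    by_cases hcj : c j x = 0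
    · simp [hcj]
    rw [MeasureTheory.integral_const_mul]
    congr 1
    have hwx : Measurable (Function.uncurry (w j x)) :=
      (hw j).comp (measurable_const.prodMk measurable_id)
    exact (pet1 J0 j x (hFi x) hwx (hC j x) (hG j x hcj)).symm
  have mS : Measurable fun q : ℝ × (ℝ × ℝ) => ∑ j ∈ Finset.range n, c j q.1 * Ψ j q.1 q.2 :=
    Finset.measurable_sum _ fun j _ => ((hc j).comp measurable_fst).mul (mΨ j)
  calc ∫⁻ x in G, ‖∑ j ∈ Finset.range n, c j x * ∫ y, (kk (J0 + j) (x - y) : ℂ) * F x y‖ₑ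
      = ∫⁻ x in G, ‖∫ p, ∑ j ∈ Finset.range n, c j x * Ψ j x p ∂muG‖ₑ := by
        simp_rw [key]
    _ ≤ ∫⁻ x in G, (∫⁻ p, ‖∑ j ∈ Finset.range n, c j x * Ψ j x p‖ₑ ∂muG) :=
        lintegral_mono fun x => enorm_integral_le_lintegral_enorm _
    _ = ∫⁻ p, (∫⁻ x in G, ‖∑ j ∈ Finset.range n, c j x * Ψ j x p‖ₑ) ∂muG :=
        lintegral_lintegral_swap mS.enorm.aemeasurable
    _ ≤ ∫⁻ _, B ∂muG := by
        refine lintegral_mono_ae ?_
        filter_upwards [muG_mem] with p hp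
        have hp1 : 1 ≤ p.1 := hp.1.1.le
        have hp0 : 0 < p.1 := by linarith
        refine le_trans (lintegral_mono fun x => ?_) (hB p.1 hp.1 p.2 hp.2)
        have e : ∑ j ∈ Finset.range n, c j x * Ψ j x p = (∑ j ∈ Finset.range n, c j x *
            (SH j (fun z => F x (top J0 p.1 * (z + p.2))) (x / top J0 p.1 - p.2) *
              (w j x p.1 p.2 : ℂ))) * ((1 / p.1 : ℝ) : ℂ) := by
          rw [Finset.sum_mul]
          refine Finset.sum_congr rfl fun j _ => ?_
          simp only [hΨ]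
          rw [SH_eq j (top_pos J0 hp0)]
          push_cast
          ring
        rw [e, enorm_mul]
        have h1 : ‖((1 / p.1 : ℝ) : ℂ)‖ₑ ≤ 1 := by
          rw [← ofReal_norm, Complex.norm_real, Real.norm_eq_abs, abs_of_pos (by positivity)]
          rw [ENNReal.ofReal_le_one]
          rw [div_le_one hp0]; exact hp1
        exact (mul_le_of_le_one_right' h1)
    _ = B := by rw [lintegral_const, muG_univ, mul_one]

end Vale.Agent.P091.T.H827
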